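import Vale.Agent.H28.BC.Defs

namespace Vale.Agent.H28

open MeasureTheory Filter Topology

lemma abs_coinSign (b : Bool) : |coinSign b| = 1 := by
  cases b <;> simp [coinSign]

lemma measurable_coinSign : Measurable coinSign := measurable_of_countable _

/-- The coin-flip measure on sequences. -/
noncomputable abbrev coinSeqMeasure : Measure (ℕ → Bool) :=
  Measure.infinitePi (fun _ : ℕ => (PMF.uniformOfFintype Bool).toMeasure)

lemma summable_signTerm {lam : ℝ} (h : |lam| < 1) (ω : ℕ → Bool) :
    Summable (fun n : ℕ => coinSign (ω n) * lam ^ n) := by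
  have h1 : Summable (fun n : ℕ => |lam| ^ n) :=
    summable_geometric_of_lt_one (abs_nonneg _) h
  refine Summable.of_norm_bounded h1 (fun n => ?_)
  simp [abs_mul, abs_coinSign, abs_pow]

lemma measurable_signSeries {lam : ℝ} (h : |lam| < 1) : Measurable (signSeries lam) := by
  have hf : ∀ N : ℕ, Measurable (fun ω : ℕ → Bool =>
      ∑ n ∈ Finset.range N, coinSign (ω n) * lam ^ n) := by
    intro N
    refine Finset.measurable_sum _ (fun n _ => ?_)
    exact (measurable_coinSign.comp (measurable_pi_apply n)).mul_const _
  refine measurable_of_tendsto_metrizable hf ?_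
  rw [tendsto_pi_nhds]
  intro ω
  exact (summable_signTerm h ω).hasSum.tendsto_sum_nat

lemma bernoulliConv_eq (lam : ℝ) : bernoulliConv lam = coinSeqMeasure.map (signSeries lam) := rfl

instance isProbabilityMeasure_bernoulliConv {lam : ℝ} [Fact (|lam| < 1)] :
    IsProbabilityMeasure (bernoulliConv lam) :=
  Measure.isProbabilityMeasure_map (measurable_signSeries Fact.out).aemeasurable

lemma isProbabilityMeasure_bernoulliConv' {lam : ℝ} (h : |lam| < 1) :
    IsProbabilityMeasure (bernoulliConv lam) :=
  Measure.isProbabilityMeasure_map (measurable_signSeries h).aemeasurable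

end Vale.Agent.H28
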