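import Vale.Agent.H28.BC.Conv

/-!
# Bernoulli convolutions: closure properties of the singular and of the a.c. parameters
-/

namespace Vale.Agent.H28

open MeasureTheory ProbabilityTheory Filter Topology

/-- If a convolution `μ ∗ ρ` with `ρ ≠ 0` is singular to Lebesgue measure, so is `μ`. -/
lemma mutuallySingular_of_conv {μ ρ : Measure ℝ} [SFinite μ] [SFinite ρ] (hρ : ρ ≠ 0)
    (h : (μ ∗ ρ) ⟂ₘ (volume : Measure ℝ)) : μ ⟂ₘ (volume : Measure ℝ) := by
  obtain ⟨s, hs, h1, h2⟩ := h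
  have h1' : (ρ.prod μ) ((fun p : ℝ × ℝ => p.1 + p.2) ⁻¹' s) = 0 := by
    rw [Measure.conv_comm, Measure.conv, Measure.map_apply measurable_add hs] at h1
    exact h1
  rw [Measure.measure_prod_null (measurable_add hs)] at h1'
  have : (ae ρ).NeBot := ae_neBot.2 hρ
  obtain ⟨y, hy⟩ := h1'.exists
  refine ⟨(fun x : ℝ => y + x) ⁻¹' s, hs.preimage (measurable_const_add y), hy, ?_⟩
  rw [← Set.preimage_compl, measure_preimage_add]
  exact h2

/-- Singularity passes from `λ` to its powers. -/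
theorem singular_pow {lam : ℝ} (h : |lam| < 1) {k : ℕ} (hk : k ≠ 0)
    (hs : bernoulliConv lam ⟂ₘ (volume : Measure ℝ)) :
    bernoulliConv (lam ^ k) ⟂ₘ (volume : Measure ℝ) := by
  have := isProbabilityMeasure_bernoulliConv' (abs_pow_lt_one h hk)
  have := isProbabilityMeasure_restLaw h k
  rw [bernoulliConv_eq_conv h hk] at hs
  exact mutuallySingular_of_conv (IsProbabilityMeasure.ne_zero _) hs

/-- Absolute continuity passes from a power `λ^k` to `λ`. -/
theorem absolutelyContinuous_of_pow {lam : ℝ} (h : |lam| < 1) {k : ℕ} (hk : k ≠ 0)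
    (hs : bernoulliConv (lam ^ k) ≪ (volume : Measure ℝ)) :
    bernoulliConv lam ≪ (volume : Measure ℝ) := by
  have := isProbabilityMeasure_bernoulliConv' (abs_pow_lt_one h hk)
  have := isProbabilityMeasure_restLaw h k
  rw [bernoulliConv_eq_conv h hk, Measure.conv_comm]
  exact Measure.conv_absolutelyContinuous hs

/-- If `a / b < λ < 1` with `0 < a < b ≤ 1`, some power `λ^k`, `k ≥ 1`, lies in `(a, b)`. -/
lemma exists_pow_mem_Ioo {a b lam : ℝ} (ha : 0 < a) (hab : a < b) (hb : b ≤ 1)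
    (h1 : a / b < lam) (h2 : lam < 1) : ∃ k : ℕ, k ≠ 0 ∧ lam ^ k ∈ Set.Ioo a b := by
  have hb0 : 0 < b := ha.trans hab
  have hlam0 : 0 < lam := (div_pos ha hb0).trans h1
  have hex : ∃ n : ℕ, lam ^ n < b := exists_pow_lt_of_lt_one hb0 h2
  classical
  have hk0 : Nat.find hex ≠ 0 := by
    intro h0
    have := Nat.find_spec hex
    rw [h0, pow_zero] at this
    linarith
  refine ⟨Nat.find hex, hk0, ?_, Nat.find_spec hex⟩
  obtain ⟨m, hm⟩ := Nat.exists_eq_succ_of_ne_zero hk0
  have hmin : ¬ lam ^ m < b := Nat.find_min hex (by omega)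
  rw [not_lt] at hmin
  rw [hm, pow_succ]
  have h3 : a < b * lam := by
    rwa [div_lt_iff₀ hb0, mul_comm] at h1
  calc a < b * lam := h3
    _ ≤ lam ^ m * lam := by
        exact mul_le_mul_of_nonneg_right hmin hlam0.le

end Vale.Agent.H28
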