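import Vale.Agent.H28.BC.Basic

/-!
# Bernoulli convolutions: the decomposition `ν_λ = ν_{λ^k} ∗ ρ` and its consequences
-/

namespace Vale.Agent.H28

open MeasureTheory ProbabilityTheory Filter Topology

/-- The subsequence along multiples of `k`. -/
def subSeq (k : ℕ) (ω : ℕ → Bool) : ℕ → Bool := fun m => ω (k * m)

/-- Keep the coordinates not divisible by `k`, set the others to `false`. -/
def maskSeq (k : ℕ) (ω : ℕ → Bool) : ℕ → Bool := fun n => if k ∣ n then false else ω n

/-- The part of the series over the indices not divisible by `k`. -/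
noncomputable def restSeries (lam : ℝ) (k : ℕ) (ω : ℕ → Bool) : ℝ :=
  ∑' n : ℕ, if k ∣ n then 0 else coinSign (ω n) * lam ^ n

lemma summable_restTerm {lam : ℝ} (h : |lam| < 1) (k : ℕ) (ω : ℕ → Bool) :
    Summable (fun n : ℕ => if k ∣ n then (0 : ℝ) else coinSign (ω n) * lam ^ n) := by
  refine Summable.of_norm_bounded (summable_signTerm h ω).norm (fun n => ?_)
  split_ifs
  · simp only [norm_zero]
    positivity
  · exact le_rfl

lemma summable_mainTerm {lam : ℝ} (h : |lam| < 1) (k : ℕ) (ω : ℕ → Bool) :
    Summable (fun n : ℕ => if k ∣ n then coinSign (ω n) * lam ^ n else (0 : ℝ)) := by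
  refine Summable.of_norm_bounded (summable_signTerm h ω).norm (fun n => ?_)
  split_ifs
  · exact le_rfl
  · simp only [norm_zero]
    positivity

lemma signSeries_split {lam : ℝ} (h : |lam| < 1) {k : ℕ} (hk : k ≠ 0) (ω : ℕ → Bool) :
    signSeries lam ω = signSeries (lam ^ k) (subSeq k ω) + restSeries lam k ω := by
  have h1 := summable_mainTerm h k ω
  have h2 := summable_restTerm h k ω
  have h3 : signSeries lam ω = ∑' n : ℕ, ((if k ∣ n then coinSign (ω n) * lam ^ n else (0 : ℝ))
      + (if k ∣ n then (0 : ℝ) else coinSign (ω n) * lam ^ n)) := by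
    unfold signSeries
    congr 1
    ext n
    split_ifs <;> simp
  rw [h3, h1.tsum_add h2]
  congr 1
  have hinj : Function.Injective (fun m : ℕ => k * m) :=
    fun a b hab => Nat.eq_of_mul_eq_mul_left (Nat.pos_of_ne_zero hk) hab
  rw [← hinj.tsum_eq]
  · unfold signSeries subSeq
    congr 1
    ext m
    simp [pow_mul]
  · intro n hn
    simp only [Function.mem_support, ne_eq, ite_eq_right_iff, Classical.not_imp] at hn
    obtain ⟨m, rfl⟩ := hn.1
    exact ⟨m, rfl⟩

lemma restSeries_maskSeq (lam : ℝ) (k : ℕ) (ω : ℕ → Bool) :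
    restSeries lam k (maskSeq k ω) = restSeries lam k ω := by
  unfold restSeries maskSeq
  congr 1
  ext n
  split_ifs <;> simp

lemma measurable_restSeries {lam : ℝ} (h : |lam| < 1) (k : ℕ) :
    Measurable (restSeries lam k) := by
  have hf : ∀ N : ℕ, Measurable (fun ω : ℕ → Bool =>
      ∑ n ∈ Finset.range N, if k ∣ n then (0 : ℝ) else coinSign (ω n) * lam ^ n) := by
    intro N
    refine Finset.measurable_sum _ (fun n _ => ?_)
    split_ifs
    · exact measurable_const
    · exact (measurable_coinSign.comp (measurable_pi_apply n)).mul_const _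
  refine measurable_of_tendsto_metrizable hf ?_
  rw [tendsto_pi_nhds]
  intro ω
  exact (summable_restTerm h k ω).hasSum.tendsto_sum_nat

lemma measurable_subSeq (k : ℕ) : Measurable (subSeq k) :=
  measurable_pi_lambda _ (fun m => measurable_pi_apply (k * m))

lemma map_subSeq {k : ℕ} (hk : k ≠ 0) : coinSeqMeasure.map (subSeq k) = coinSeqMeasure := by
  have hinj : Function.Injective (fun m : ℕ => k * m) :=
    fun a b hab => Nat.eq_of_mul_eq_mul_left (Nat.pos_of_ne_zero hk) hab
  exact Measure.map_infinitePi_infinitePi_of_inj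
    (P := fun _ : ℕ => (PMF.uniformOfFintype Bool).toMeasure) hinj

lemma indepFun_subSeq_maskSeq (k : ℕ) :
    IndepFun (subSeq k) (maskSeq k) coinSeqMeasure := by
  have hi : iIndepFun (fun (i : ℕ) (ω : ℕ → Bool) => ω i) coinSeqMeasure :=
    iIndepFun_infinitePi (P := fun _ : ℕ => (PMF.uniformOfFintype Bool).toMeasure)
      (X := fun _ b => b) (fun _ => measurable_id)
  rw [iIndepFun_iff_iIndep] at hi
  have hle : ∀ i : ℕ, (MeasurableSpace.comap (fun ω : ℕ → Bool => ω i) inferInstance)
      ≤ (inferInstance : MeasurableSpace (ℕ → Bool)) :=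
    fun i => (measurable_pi_apply i).comap_le
  have hST : Disjoint {n : ℕ | k ∣ n} {n : ℕ | ¬ k ∣ n} := by
    rw [Set.disjoint_left]
    intro n hn hn'
    exact hn' hn
  have hind := indep_iSup_of_disjoint hle hi hST
  rw [IndepFun_iff_Indep]
  refine indep_of_indep_of_le hind ?_ ?_
  · have h1 : MeasurableSpace.comap (subSeq k) inferInstance
        = ⨆ a, MeasurableSpace.comap (fun ω : ℕ → Bool => ω (k * a)) inferInstance :=
      MeasurableSpace.comap_process_pi (fun (a : ℕ) (ω : ℕ → Bool) => ω (k * a))
    rw [h1]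
    exact iSup_le (fun a => le_iSup₂_of_le (k * a) (Dvd.intro a rfl) le_rfl)
  · have h1 : MeasurableSpace.comap (maskSeq k) inferInstance
        = ⨆ a, MeasurableSpace.comap
            (fun ω : ℕ → Bool => if k ∣ a then false else ω a) inferInstance :=
      MeasurableSpace.comap_process_pi
        (fun (a : ℕ) (ω : ℕ → Bool) => if k ∣ a then false else ω a)
    rw [h1]
    refine iSup_le (fun a => ?_)
    by_cases ha : k ∣ a
    · simp only [ha, if_true, MeasurableSpace.comap_const]
      exact bot_le
    · simp only [ha, if_false]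
      exact le_iSup₂_of_le a ha le_rfl

/-- The law of the part of the series over the indices not divisible by `k`. -/
noncomputable def restLaw (lam : ℝ) (k : ℕ) : Measure ℝ :=
  coinSeqMeasure.map (restSeries lam k)

lemma isProbabilityMeasure_restLaw {lam : ℝ} (h : |lam| < 1) (k : ℕ) :
    IsProbabilityMeasure (restLaw lam k) :=
  Measure.isProbabilityMeasure_map (measurable_restSeries h k).aemeasurable

lemma abs_pow_lt_one {lam : ℝ} (h : |lam| < 1) {k : ℕ} (hk : k ≠ 0) : |lam ^ k| < 1 := by
  rw [abs_pow]
  exact pow_lt_one₀ (abs_nonneg _) h hk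

/-- The decomposition `ν_λ = ν_{λ^k} ∗ ρ`. -/
theorem bernoulliConv_eq_conv {lam : ℝ} (h : |lam| < 1) {k : ℕ} (hk : k ≠ 0) :
    bernoulliConv lam = bernoulliConv (lam ^ k) ∗ restLaw lam k := by
  have hk' := abs_pow_lt_one h hk
  have hX : Measurable (signSeries (lam ^ k) ∘ subSeq k) :=
    (measurable_signSeries hk').comp (measurable_subSeq k)
  have hR : Measurable (restSeries lam k ∘ maskSeq k) := by
    have : restSeries lam k ∘ maskSeq k = restSeries lam k := by
      ext ω
      exact restSeries_maskSeq lam k ω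
    rw [this]
    exact measurable_restSeries h k
  have hind : IndepFun (signSeries (lam ^ k) ∘ subSeq k) (restSeries lam k ∘ maskSeq k)
      coinSeqMeasure :=
    (indepFun_subSeq_maskSeq k).comp (measurable_signSeries hk') (measurable_restSeries h k)
  have hsum : signSeries lam = (signSeries (lam ^ k) ∘ subSeq k) + (restSeries lam k ∘ maskSeq k) := by
    ext ω
    simp only [Pi.add_apply, Function.comp_apply, restSeries_maskSeq]
    exact signSeries_split h hk ω
  have h1 := hind.map_add_eq_map_conv_map hX hR
  rw [bernoulliConv_eq, hsum, h1]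
  congr 1
  · rw [← Measure.map_map (measurable_signSeries hk') (measurable_subSeq k), map_subSeq hk]
    rfl
  · have : restSeries lam k ∘ maskSeq k = restSeries lam k := by
      ext ω
      exact restSeries_maskSeq lam k ω
    rw [this]
    rfl

end Vale.Agent.H28
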