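import Mathlib

/-!
# Bernoulli convolutions: definitions

* `coinSign`, `signSeries`, `bernoulliConv`: the unbiased Bernoulli convolution `ν_λ`,
  the law of `∑_{n ≥ 0} ε_n λ^n` for independent fair signs `ε_n`.
* `singSet`: the set of `λ ∈ (1/2, 1)` with `ν_λ` singular.
-/

namespace Vale.Agent.H28

open MeasureTheory

/-- Sign attached to a coin flip: `true ↦ 1`, `false ↦ -1`. -/
def coinSign (b : Bool) : ℝ := if b then 1 else -1

/-- The series `Y_λ(ω) = ∑_{n ≥ 0} ε_n λ^n`, where `ε_n = coinSign (ω n)`. -/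
noncomputable def signSeries (lam : ℝ) (ω : ℕ → Bool) : ℝ :=
  ∑' n : ℕ, coinSign (ω n) * lam ^ n

/-- The (unbiased) Bernoulli convolution `ν_λ`: the law of `∑_{n ≥ 0} ε_n λ^n`
when the coin flips `ω n` are independent and uniform on `Bool`. -/
noncomputable def bernoulliConv (lam : ℝ) : Measure ℝ :=
  (Measure.infinitePi (fun _ : ℕ => (PMF.uniformOfFintype Bool).toMeasure)).map (signSeries lam)

/-- The set of parameters `λ ∈ (1/2, 1)` for which `ν_λ` is singular with respect to
Lebesgue measure. -/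
def singSet : Set ℝ :=
  {lam | lam ∈ Set.Ioo (1 / 2 : ℝ) 1 ∧ bernoulliConv lam ⟂ₘ (volume : Measure ℝ)}

end Vale.Agent.H28
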