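import Vale.Agent.H28.BC.Usc

/-!
# Bernoulli convolutions: the set of singular parameters is a `G_δ`; the dichotomy
-/

namespace Vale.Agent.H28

open MeasureTheory ProbabilityTheory Filter Topology Set

/-- Open approximations of the set of singular parameters. -/
def singApprox (j : ℕ) : Set ℝ :=
  {lam | lam ∈ Ioo (1 / 2 : ℝ) 1 ∧ ∃ U : Set ℝ, IsOpen U ∧
    volume U < (2⁻¹ : ENNReal) ^ j ∧ bernoulliConv lam Uᶜ < (2⁻¹ : ENNReal) ^ j}

lemma abs_lt_one_of_mem_Ioo {lam : ℝ} (h : lam ∈ Ioo (1 / 2 : ℝ) 1) : |lam| < 1 :=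
  abs_lt.2 ⟨by linarith [h.1], h.2⟩

lemma isOpen_singApprox (j : ℕ) : IsOpen (singApprox j) := by
  rw [isOpen_iff_eventually]
  rintro lam0 ⟨hI, U, hU, hvol, hν⟩
  have habs : |lam0| < 1 := abs_lt_one_of_mem_Ioo hI
  have h1 := (isOpen_setOf_bernoulliConv_lt hU.isClosed_compl ((2⁻¹ : ENNReal) ^ j)).eventually_mem
    (show lam0 ∈ {lam : ℝ | |lam| < 1 ∧ bernoulliConv lam Uᶜ < (2⁻¹ : ENNReal) ^ j} from
      ⟨habs, hν⟩)
  have h2 := isOpen_Ioo.eventually_mem hI
  filter_upwards [h1, h2] with lam h1 h2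
  exact ⟨h2, U, hU, hvol, h1.2⟩

lemma singSet_eq_iInter : singSet = ⋂ j : ℕ, singApprox j := by
  ext lam
  simp only [singSet, singApprox, Set.mem_ofPred_eq, mem_iInter]
  constructor
  · rintro ⟨hI, s, hs, h1, h2⟩ j
    refine ⟨hI, ?_⟩
    have hpos : (0 : ENNReal) < (2⁻¹ : ENNReal) ^ j := ENNReal.pow_pos (by simp) j
    obtain ⟨U, hsU, hU, hUlt⟩ :=
      Set.exists_isOpen_lt_of_lt (μ := (volume : Measure ℝ)) sᶜ ((2⁻¹ : ENNReal) ^ j)
        (by rw [h2]; exact hpos)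
    refine ⟨U, hU, hUlt, ?_⟩
    have hsub : Uᶜ ⊆ s := compl_subset_comm.1 hsU
    exact lt_of_le_of_lt ((measure_mono hsub).trans h1.le) hpos
  · intro h
    have hI := (h 0).1
    choose U hU using fun j => (h j).2
    have hmeas : MeasurableSet (limsup U atTop) := by
      rw [limsup_eq_iInf_iSup_of_nat]
      simp only [iSup_eq_iUnion, iInf_eq_iInter]
      exact MeasurableSet.iInter fun n => MeasurableSet.iUnion fun i =>
        MeasurableSet.iUnion fun _ => (hU i).1.measurableSet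
    refine ⟨hI, (limsup U atTop)ᶜ, hmeas.compl, ?_, ?_⟩
    · rw [limsup_eq_iInf_iSup_of_nat]
      simp only [iSup_eq_iUnion, iInf_eq_iInter, compl_iInter, compl_iUnion]
      rw [measure_iUnion_null_iff]
      intro n
      refine le_antisymm ?_ zero_le
      refine ge_of_tendsto (ENNReal.tendsto_pow_atTop_nhds_zero_of_lt_one
        (show (2⁻¹ : ENNReal) < 1 by simp)) ?_
      refine eventually_atTop.2 ⟨n, fun j hj => ?_⟩
      exact (measure_mono (iInter₂_subset j hj)).trans (hU j).2.2.le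
    · rw [compl_compl]
      refine measure_limsup_atTop_eq_zero (ne_of_lt ?_)
      calc ∑' i : ℕ, volume (U i) ≤ ∑' i : ℕ, (2⁻¹ : ENNReal) ^ i :=
            ENNReal.tsum_le_tsum fun i => (hU i).2.1.le
        _ = (1 - 2⁻¹)⁻¹ := ENNReal.tsum_geometric _
        _ < ⊤ := by simp

/-- The set of singular parameters is a `G_δ` set. -/
theorem isGδ_singSet : IsGδ singSet := by
  rw [singSet_eq_iInter]
  exact IsGδ.iInter_of_isOpen isOpen_singApprox

/-- The set of singular parameters is closed under taking powers that stay above `1/2`. -/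
theorem singSet_pow {lam : ℝ} (h : lam ∈ singSet) {k : ℕ} (hk : k ≠ 0)
    (hk2 : 1 / 2 < lam ^ k) : lam ^ k ∈ singSet := by
  obtain ⟨hI, hs⟩ := h
  have h0 : 0 ≤ lam := by linarith [hI.1]
  exact ⟨⟨hk2, pow_lt_one₀ h0 hI.2 hk⟩, singular_pow (abs_lt_one_of_mem_Ioo hI) hk hs⟩

/-- Gap principle for singular parameters. -/
theorem singSet_gap {a b : ℝ} (ha : 1 / 2 ≤ a) (hab : a < b) (hb : b ≤ 1)
    (h : Disjoint (Ioo a b) singSet) : Disjoint (Ioo (a / b) 1) singSet := by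
  rw [Set.disjoint_left] at h ⊢
  intro lam hlam hS
  have ha0 : 0 < a := lt_of_lt_of_le (by norm_num) ha
  obtain ⟨k, hk0, hk⟩ := exists_pow_mem_Ioo ha0 hab hb hlam.1 hlam.2
  exact h hk (singSet_pow hS hk0 (lt_of_le_of_lt ha hk.1))

/-- Gap principle for absolutely continuous parameters. -/
theorem absolutelyContinuous_gap {a b : ℝ} (ha : 0 < a) (hab : a < b) (hb : b ≤ 1)
    (h : ∀ μ ∈ Ioo a b, bernoulliConv μ ≪ (volume : Measure ℝ)) :
    ∀ lam ∈ Ioo (a / b) 1, bernoulliConv lam ≪ (volume : Measure ℝ) := by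
  intro lam hlam
  have hb0 : 0 < b := ha.trans hab
  have hlam0 : 0 < lam := (div_pos ha hb0).trans hlam.1
  obtain ⟨k, hk0, hk⟩ := exists_pow_mem_Ioo ha hab hb hlam.1 hlam.2
  exact absolutelyContinuous_of_pow (abs_lt.2 ⟨by linarith, hlam.2⟩) hk0 (h _ hk)

/-- If singular parameters accumulate at `1`, they are dense in `(1/2, 1)`. -/
theorem singSet_dense_of_accumulate
    (hacc : ∀ η : ℝ, 0 < η → ∃ lam ∈ Ioo (1 - η) 1, lam ∈ singSet) :
    Ioo (1 / 2 : ℝ) 1 ⊆ closure singSet := by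
  intro x hx
  rw [Metric.mem_closure_iff]
  intro ε hε
  have hax : max (1 / 2) (x - ε) < x := max_lt hx.1 (by linarith)
  have hxb : x < min 1 (x + ε) := lt_min hx.2 (by linarith)
  have ha0 : (0 : ℝ) < max (1 / 2) (x - ε) := lt_of_lt_of_le (by norm_num) (le_max_left _ _)
  have hab := hax.trans hxb
  have hb1 : min 1 (x + ε) ≤ 1 := min_le_left _ _
  have hb0 := ha0.trans hab
  have hq : max (1 / 2) (x - ε) / min 1 (x + ε) < 1 := (div_lt_one hb0).2 hab
  obtain ⟨lam, hlamI, hlamS⟩ := hacc (1 - max (1 / 2) (x - ε) / min 1 (x + ε)) (by linarith)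
  have hlam1 : max (1 / 2) (x - ε) / min 1 (x + ε) < lam := by
    have := hlamI.1
    linarith
  obtain ⟨k, hk0, hk⟩ := exists_pow_mem_Ioo ha0 hab hb1 hlam1 hlamI.2
  refine ⟨lam ^ k, singSet_pow hlamS hk0 (lt_of_le_of_lt (le_max_left _ _) hk.1), ?_⟩
  rw [Real.dist_eq, abs_lt]
  constructor
  · have h1 := hk.2
    have h2 := min_le_right 1 (x + ε)
    linarith
  · have h1 := hk.1
    have h2 := le_max_right (1 / 2) (x - ε)
    linarith

/-- If the singular parameters are dense in `(1/2, 1)`, they stay dense after removing any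
countable set (Baire category). -/
theorem singSet_diff_dense (hd : Ioo (1 / 2 : ℝ) 1 ⊆ closure singSet) {C : Set ℝ}
    (hC : C.Countable) : Ioo (1 / 2 : ℝ) 1 ⊆ closure (singSet \ C) := by
  have hG : IsGδ (singSet ∪ (Icc (1 / 2 : ℝ) 1)ᶜ) :=
    isGδ_singSet.union isClosed_Icc.isOpen_compl.isGδ
  have hGd : Dense (singSet ∪ (Icc (1 / 2 : ℝ) 1)ᶜ) := by
    intro x
    rw [closure_union]
    by_cases hx : x ∈ Ioo (1 / 2 : ℝ) 1
    · exact Or.inl (hd hx)
    · right
      rw [closure_compl, interior_Icc]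
      exact hx
  have hdense := hGd.inter_of_Gδ hG hC.isGδ_compl (hC.dense_compl ℝ)
  intro x hx
  have h1 := hdense.open_subset_closure_inter isOpen_Ioo hx
  refine closure_mono ?_ h1
  rintro y ⟨hyI, hyG, hyC⟩
  rcases hyG with hyS | hyn
  · exact ⟨hyS, hyC⟩
  · exact absurd (Ioo_subset_Icc_self hyI) hyn

/-- The dichotomy. -/
theorem singSet_dichotomy :
    (∃ η : ℝ, 0 < η ∧ Disjoint (Ioo (1 - η) 1) singSet) ∨
      (∀ C : Set ℝ, C.Countable → Ioo (1 / 2 : ℝ) 1 ⊆ closure (singSet \ C)) := by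
  by_cases h : ∃ η : ℝ, 0 < η ∧ Disjoint (Ioo (1 - η) 1) singSet
  · exact Or.inl h
  · right
    have hacc : ∀ η : ℝ, 0 < η → ∃ lam ∈ Ioo (1 - η) 1, lam ∈ singSet := by
      intro η hη
      have h1 : ¬ Disjoint (Ioo (1 - η) 1) singSet := fun hd => h ⟨η, hη, hd⟩
      rw [Set.not_disjoint_iff] at h1
      exact h1
    intro C hC
    exact singSet_diff_dense (singSet_dense_of_accumulate hacc) hC

end Vale.Agent.H28
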