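import Vale.Agent.H28.BC.PisotDefs
import Vale.Agent.H28.BC.Closure

/-!
# Pisot numbers: a root whose two coprime powers are Pisot is Pisot; range reduction
-/

namespace Vale.Agent.H28

open MeasureTheory Polynomial

/-- A complex root of the minimal polynomial of `β` has its `a`-th power a root of the minimal
polynomial of `β ^ a`. -/
lemma aeval_pow_minpoly_pow {β : ℝ} (a : ℕ) {z : ℂ}
    (hz : aeval z (minpoly ℚ β) = 0) : aeval (z ^ a) (minpoly ℚ (β ^ a)) = 0 := by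
  have h1 : aeval β ((minpoly ℚ (β ^ a)).comp (X ^ a)) = 0 := by
    rw [aeval_comp]
    simp [minpoly.aeval]
  obtain ⟨q, hq⟩ := minpoly.dvd ℚ β h1
  have h2 : aeval z ((minpoly ℚ (β ^ a)).comp (X ^ a)) = 0 := by
    rw [hq, map_mul, hz, zero_mul]
  rw [aeval_comp] at h2
  simpa using h2

/-- If `β > 0` and two coprime powers `β ^ a`, `β ^ b` are Pisot numbers, then `β` is a Pisot
number. -/
theorem isPisot_of_pow_coprime {β : ℝ} (hβ : 0 < β) {a b : ℕ} (hab : Nat.Coprime a b)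
    (ha0 : a ≠ 0) (hb0 : b ≠ 0) (ha : IsPisot (β ^ a)) (hb : IsPisot (β ^ b)) : IsPisot β := by
  refine ⟨?_, ha.2.1.of_pow (Nat.pos_of_ne_zero ha0), fun z hz hne => ?_⟩
  · by_contra hle
    rw [not_lt] at hle
    have := pow_le_one₀ (n := a) hβ.le hle
    linarith [ha.1]
  · by_contra hnorm
    have hza := ha.2.2 (z ^ a) (aeval_pow_minpoly_pow a hz)
    have hzb := hb.2.2 (z ^ b) (aeval_pow_minpoly_pow b hz)
    have h1 : z ^ a = ((β ^ a : ℝ) : ℂ) := by
      by_contra hne'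
      have := hza hne'
      rw [norm_pow] at this
      exact hnorm ((pow_lt_one_iff_of_nonneg (norm_nonneg z) ha0).1 this)
    have h2 : z ^ b = ((β ^ b : ℝ) : ℂ) := by
      by_contra hne'
      have := hzb hne'
      rw [norm_pow] at this
      exact hnorm ((pow_lt_one_iff_of_nonneg (norm_nonneg z) hb0).1 this)
    have hβc : (β : ℂ) ≠ 0 := by
      exact_mod_cast hβ.ne'
    have h3 : (z / (β : ℂ)) ^ a = 1 := by
      rw [div_pow, h1]
      push_cast
      exact div_self (pow_ne_zero _ hβc)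
    have h4 : (z / (β : ℂ)) ^ b = 1 := by
      rw [div_pow, h2]
      push_cast
      exact div_self (pow_ne_zero _ hβc)
    have h5 : z / (β : ℂ) = 1 := (pow_eq_one_iff_of_coprime hab).1 ⟨h3, h4⟩
    exact hne ((div_eq_one_iff_eq hβc).1 h5)

/-- Range reduction: if every singular `ν_μ` with `1/2 < μ ≤ 2^(-1/3)` (that is `μ^3 ≤ 1/2`) has
`μ⁻¹` Pisot, then every singular `ν_λ` with `1/2 < λ < 1` has `λ⁻¹` Pisot. -/
theorem pisot_range_reduction
    (H : ∀ μ : ℝ, 1 / 2 < μ → μ ^ 3 ≤ 1 / 2 →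
      bernoulliConv μ ⟂ₘ (volume : Measure ℝ) → IsPisot μ⁻¹) :
    ∀ lam : ℝ, 1 / 2 < lam → lam < 1 →
      bernoulliConv lam ⟂ₘ (volume : Measure ℝ) → IsPisot lam⁻¹ := by
  intro lam h1 h2 hs
  have hlam0 : 0 < lam := by linarith
  have habs : |lam| < 1 := abs_lt.2 ⟨by linarith, h2⟩
  by_cases h3 : lam ^ 3 ≤ 1 / 2
  · exact H lam h1 h3 hs
  rw [not_le] at h3
  have hex : ∃ n : ℕ, lam ^ (3 * n) ≤ 1 / 2 := by
    obtain ⟨n, hn⟩ := exists_pow_lt_of_lt_one (show (0 : ℝ) < 1 / 2 by norm_num) h2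
    refine ⟨n, le_trans ?_ hn.le⟩
    exact pow_le_pow_of_le_one hlam0.le h2.le (by omega)
  classical
  have hk := Nat.find_spec hex
  have hk0 : Nat.find hex ≠ 0 := by
    intro h0
    rw [h0] at hk
    norm_num at hk
  have hk1 : Nat.find hex ≠ 1 := by
    intro h0
    rw [h0] at hk
    simp only [mul_one] at hk
    linarith
  obtain ⟨m, hm⟩ : ∃ m : ℕ, Nat.find hex = m + 2 := ⟨Nat.find hex - 2, by omega⟩
  have hmin : ¬ lam ^ (3 * (m + 1)) ≤ 1 / 2 := Nat.find_min hex (by omega)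
  rw [not_le] at hmin
  rw [hm] at hk
  -- the two powers
  have hb1 : 1 / 2 < lam ^ (m + 3) :=
    lt_of_lt_of_le hmin (pow_le_pow_of_le_one hlam0.le h2.le (by omega))
  have ha1 : 1 / 2 < lam ^ (m + 2) :=
    lt_of_lt_of_le hb1 (pow_le_pow_of_le_one hlam0.le h2.le (by omega))
  have ha3 : (lam ^ (m + 2)) ^ 3 ≤ 1 / 2 := by
    rw [← pow_mul]
    have : (m + 2) * 3 = 3 * (m + 2) := by ring
    rw [this]
    exact hk
  have hb3 : (lam ^ (m + 3)) ^ 3 ≤ 1 / 2 := by
    rw [← pow_mul]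
    exact le_trans (pow_le_pow_of_le_one hlam0.le h2.le (by omega)) hk
  have hPa := H _ ha1 ha3 (singular_pow habs (by omega) hs)
  have hPb := H _ hb1 hb3 (singular_pow habs (by omega) hs)
  rw [← inv_pow] at hPa hPb
  have hcop : Nat.Coprime (m + 2) (m + 3) := by
    have : m + 3 = (m + 2) + 1 := by ring
    rw [this]
    simp
  exact isPisot_of_pow_coprime (inv_pos.2 hlam0) hcop (by omega) (by omega) hPa hPb

end Vale.Agent.H28
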