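import Mathlib

/-!
# Pisot numbers
-/

namespace Vale.Agent.H28

/-- Pisot numbers: real algebraic integers `β > 1` all of whose other Galois conjugates
(the other complex roots of the minimal polynomial over `ℚ`) have modulus `< 1`. -/
def IsPisot (β : ℝ) : Prop :=
  1 < β ∧ IsIntegral ℤ β ∧
    ∀ z : ℂ, Polynomial.aeval z (minpoly ℚ β) = 0 → z ≠ (β : ℂ) → ‖z‖ < 1

end Vale.Agent.H28
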