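import Vale.Agent.H28.BC.Gdelta

/-!
# Bernoulli convolutions: the law of pure types (Jessen and Wintner)

Every `ν_λ` with `|λ| < 1` is either absolutely continuous or singular. This classical fact is
used only to phrase the results on the singular set in terms of absolute continuity.
-/

namespace Vale.Agent.H28

open MeasureTheory ProbabilityTheory Filter Topology Set

/-- Replace the first `n` coordinates by `false`. -/
def tailMask (n : ℕ) (ω : ℕ → Bool) : ℕ → Bool := fun i => if i < n then false else ω i

/-- The countable group generated by the powers of `lam`. -/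
def powGroup (lam : ℝ) : Submodule ℤ ℝ := Submodule.span ℤ (Set.range (fun i : ℕ => lam ^ i))

lemma countable_powGroup (lam : ℝ) : ((powGroup lam : Submodule ℤ ℝ) : Set ℝ).Countable := by
  unfold powGroup
  rw [← Finsupp.range_linearCombination, LinearMap.coe_range]
  exact Set.countable_range _

lemma pow_mem_powGroup (lam : ℝ) (i : ℕ) : lam ^ i ∈ powGroup lam :=
  Submodule.subset_span ⟨i, rfl⟩

lemma signSeries_sub_tailMask_mem {lam : ℝ} (h : |lam| < 1) (n : ℕ) (ω : ℕ → Bool) :
    signSeries lam ω - signSeries lam (tailMask n ω) ∈ powGroup lam := by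
  have hs := summable_signTerm h ω
  have hs' := summable_signTerm h (tailMask n ω)
  unfold signSeries
  rw [← hs.tsum_sub hs']
  have hz : ∀ i ∉ Finset.range n,
      coinSign (ω i) * lam ^ i - coinSign (tailMask n ω i) * lam ^ i = 0 := by
    intro i hi
    have hi' : ¬ i < n := by simpa using hi
    simp [tailMask, hi']
  rw [tsum_eq_sum hz]
  refine Submodule.sum_mem _ (fun i _ => ?_)
  rw [← sub_mul]
  by_cases hin : i < n
  · cases hω : ω i
    · simp [tailMask, hin, coinSign]
    · have h2 : coinSign true - coinSign (tailMask n ω i) = 2 := by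
        simp [tailMask, hin, coinSign]
        norm_num
      rw [h2, two_mul]
      exact Submodule.add_mem _ (pow_mem_powGroup lam i) (pow_mem_powGroup lam i)
  · simp [tailMask, hin]

/-- The saturation of a set under translations by the group `powGroup lam`. -/
def saturate (lam : ℝ) (N : Set ℝ) : Set ℝ :=
  ⋃ g ∈ ((powGroup lam : Submodule ℤ ℝ) : Set ℝ), (fun x : ℝ => x + g) ⁻¹' N

lemma subset_saturate (lam : ℝ) (N : Set ℝ) : N ⊆ saturate lam N := by
  intro x hx
  refine mem_biUnion (Submodule.zero_mem (powGroup lam)) ?_
  simpa using hx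

lemma measurableSet_saturate (lam : ℝ) {N : Set ℝ} (hN : MeasurableSet N) :
    MeasurableSet (saturate lam N) :=
  MeasurableSet.biUnion (countable_powGroup lam)
    (fun g _ => hN.preimage (measurable_add_const g))

lemma volume_saturate (lam : ℝ) {N : Set ℝ} (hN : volume N = 0) :
    volume (saturate lam N) = 0 := by
  unfold saturate
  rw [measure_biUnion_null_iff (countable_powGroup lam)]
  intro g _
  rw [measure_preimage_add_right]
  exact hN

lemma saturate_invariant (lam : ℝ) (N : Set ℝ) {x d : ℝ} (hd : d ∈ powGroup lam) :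
    x + d ∈ saturate lam N ↔ x ∈ saturate lam N := by
  unfold saturate
  simp only [mem_iUnion, mem_preimage, SetLike.mem_coe, exists_prop]
  constructor
  · rintro ⟨g, hg, hx⟩
    exact ⟨d + g, Submodule.add_mem _ hd hg, by rwa [← add_assoc]⟩
  · rintro ⟨g, hg, hx⟩
    refine ⟨g - d, Submodule.sub_mem _ hg hd, ?_⟩
    have : x + d + (g - d) = x + g := by ring
    rwa [this]

lemma preimage_saturate_eq {lam : ℝ} (h : |lam| < 1) (N : Set ℝ) (n : ℕ) :
    signSeries lam ⁻¹' saturate lam N = tailMask n ⁻¹' (signSeries lam ⁻¹' saturate lam N) := by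
  ext ω
  simp only [mem_preimage]
  have hd := signSeries_sub_tailMask_mem h n ω
  have hx : signSeries lam ω
      = signSeries lam (tailMask n ω) + (signSeries lam ω - signSeries lam (tailMask n ω)) := by
    ring
  rw [hx, saturate_invariant lam N hd]

lemma comap_tailMask_le (n : ℕ) :
    MeasurableSpace.comap (tailMask n) inferInstance
      ≤ ⨆ i ≥ n, MeasurableSpace.comap (fun ω : ℕ → Bool => ω i) inferInstance := by
  have h1 : MeasurableSpace.comap (tailMask n) inferInstance
      = ⨆ a, MeasurableSpace.comap
          (fun ω : ℕ → Bool => if a < n then false else ω a) inferInstance :=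
    MeasurableSpace.comap_process_pi
      (fun (a : ℕ) (ω : ℕ → Bool) => if a < n then false else ω a)
  rw [h1]
  refine iSup_le (fun a => ?_)
  by_cases ha : a < n
  · simp only [ha, if_true, MeasurableSpace.comap_const]
    exact bot_le
  · simp only [ha, if_false]
    exact le_iSup₂_of_le a (not_lt.1 ha) le_rfl

/-- Kolmogorov zero-one law for saturated sets. -/
lemma bernoulliConv_saturate_zero_or_one {lam : ℝ} (h : |lam| < 1) {N : Set ℝ}
    (hN : MeasurableSet N) :
    bernoulliConv lam (saturate lam N) = 0 ∨ bernoulliConv lam (saturate lam N) = 1 := by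
  have hi : iIndepFun (fun (i : ℕ) (ω : ℕ → Bool) => ω i) coinSeqMeasure :=
    iIndepFun_infinitePi (P := fun _ : ℕ => (PMF.uniformOfFintype Bool).toMeasure)
      (X := fun _ b => b) (fun _ => measurable_id)
  rw [iIndepFun_iff_iIndep] at hi
  have hle : ∀ i : ℕ, (MeasurableSpace.comap (fun ω : ℕ → Bool => ω i) inferInstance)
      ≤ (inferInstance : MeasurableSpace (ℕ → Bool)) :=
    fun i => (measurable_pi_apply i).comap_le
  have hmeasE : MeasurableSet (signSeries lam ⁻¹' saturate lam N) :=
    (measurable_signSeries h) (measurableSet_saturate lam hN)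
  have htail : MeasurableSet[limsup
      (fun i : ℕ => MeasurableSpace.comap (fun ω : ℕ → Bool => ω i) inferInstance) atTop]
      (signSeries lam ⁻¹' saturate lam N) := by
    rw [limsup_eq_iInf_iSup_of_nat, MeasurableSpace.measurableSet_iInf]
    intro n
    refine comap_tailMask_le n _ ?_
    rw [preimage_saturate_eq h N n]
    exact ⟨_, hmeasE, rfl⟩
  have h01 := measure_zero_or_one_of_measurableSet_limsup_atTop hle hi htail
  rw [bernoulliConv_eq, Measure.map_apply (measurable_signSeries h) (measurableSet_saturate lam hN)]
  exact h01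

/-- The law of pure types: `ν_λ` is absolutely continuous or singular. -/
theorem bernoulliConv_pure_type {lam : ℝ} (h : |lam| < 1) :
    bernoulliConv lam ≪ (volume : Measure ℝ) ∨ bernoulliConv lam ⟂ₘ (volume : Measure ℝ) := by
  by_cases hac : bernoulliConv lam ≪ (volume : Measure ℝ)
  · exact Or.inl hac
  right
  have hex : ∃ N : Set ℝ, MeasurableSet N ∧ volume N = 0 ∧ bernoulliConv lam N ≠ 0 := by
    by_contra hcon
    refine hac (Measure.AbsolutelyContinuous.mk (fun s hs h0 => ?_))
    by_contra hne
    exact hcon ⟨s, hs, h0, hne⟩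
  obtain ⟨N, hNm, hN0, hNν⟩ := hex
  have := isProbabilityMeasure_bernoulliConv' h
  have hm := measurableSet_saturate lam hNm
  rcases bernoulliConv_saturate_zero_or_one h hNm with h0 | h1
  · exact absurd (measure_mono_null (subset_saturate lam N) h0) hNν
  · refine ⟨(saturate lam N)ᶜ, hm.compl, (prob_compl_eq_zero_iff hm).2 h1, ?_⟩
    rw [compl_compl]
    exact volume_saturate lam hN0

end Vale.Agent.H28
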