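import Vale.Agent.H28.BC.PureType

/-!
# Bernoulli convolutions: structure of the set of singular parameters
-/

namespace Vale.Agent.H28

open MeasureTheory ProbabilityTheory Filter Topology Set

/-- Parameters in `(1/2, 1)` outside the singular set are absolutely continuous. -/
theorem absolutelyContinuous_of_notMem_singSet {lam : ℝ} (hI : lam ∈ Ioo (1 / 2 : ℝ) 1)
    (h : lam ∉ singSet) : bernoulliConv lam ≪ (volume : Measure ℝ) := by
  rcases bernoulliConv_pure_type (abs_lt_one_of_mem_Ioo hI) with hac | hs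
  · exact hac
  · exact absurd ⟨hI, hs⟩ h

/-- If the singular parameters are dense in `(1/2, 1)`, the non-singular parameters there
form a meagre set. -/
theorem isMeagre_diff_singSet (hd : Ioo (1 / 2 : ℝ) 1 ⊆ closure singSet) :
    IsMeagre (Ioo (1 / 2 : ℝ) 1 \ singSet) := by
  have hG : IsGδ (singSet ∪ (Icc (1 / 2 : ℝ) 1)ᶜ) :=
    isGδ_singSet.union isClosed_Icc.isOpen_compl.isGδ
  have hGd : Dense (singSet ∪ (Icc (1 / 2 : ℝ) 1)ᶜ) := by
    intro x
    rw [closure_union]
    by_cases hx : x ∈ Ioo (1 / 2 : ℝ) 1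
    · exact Or.inl (hd hx)
    · right
      rw [closure_compl, interior_Icc]
      exact hx
  have hres := residual_of_dense_Gδ hG hGd
  refine mem_of_superset hres ?_
  rintro y hy ⟨hyI, hyS⟩
  rcases hy with hyS' | hyn
  · exact hyS hyS'
  · exact hyn (Ioo_subset_Icc_self hyI)

/-- The structure theorem for the set of singular parameters. -/
theorem singSet_structure :
    IsGδ singSet ∧
    (∀ lam ∈ singSet, ∀ k : ℕ, k ≠ 0 → (1 : ℝ) / 2 < lam ^ k → lam ^ k ∈ singSet) ∧
    (∀ lam ∈ Ioo (1 / 2 : ℝ) 1, lam ∉ singSet → bernoulliConv lam ≪ (volume : Measure ℝ)) ∧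
    (∀ a b : ℝ, 0 < a → a < b → b ≤ 1 →
      (∀ μ ∈ Ioo a b, bernoulliConv μ ≪ (volume : Measure ℝ)) →
      ∀ lam ∈ Ioo (a / b) 1, bernoulliConv lam ≪ (volume : Measure ℝ)) ∧
    ((∃ η : ℝ, 0 < η ∧ ∀ lam ∈ Ioo (1 - η) 1, bernoulliConv lam ≪ (volume : Measure ℝ)) ∨
      (IsMeagre (Ioo (1 / 2 : ℝ) 1 \ singSet) ∧
        ∀ C : Set ℝ, C.Countable → Ioo (1 / 2 : ℝ) 1 ⊆ closure (singSet \ C))) := by
  refine ⟨isGδ_singSet, fun lam hlam k hk hk2 => singSet_pow hlam hk hk2,
    fun lam hI h => absolutelyContinuous_of_notMem_singSet hI h,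
    fun a b ha hab hb h => absolutelyContinuous_gap ha hab hb h, ?_⟩
  by_cases hacc : ∀ η : ℝ, 0 < η → ∃ lam ∈ Ioo (1 - η) 1, lam ∈ singSet
  · right
    have hd := singSet_dense_of_accumulate hacc
    exact ⟨isMeagre_diff_singSet hd, fun C hC => singSet_diff_dense hd hC⟩
  · left
    push Not at hacc
    obtain ⟨η, hη, h⟩ := hacc
    refine ⟨min η (1 / 2), lt_min hη (by norm_num), fun lam hlam => ?_⟩
    have h1 : 1 - η < lam := by
      have := min_le_left η (1 / 2)
      linarith [hlam.1]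
    have h2 : (1 : ℝ) / 2 < lam := by
      have := min_le_right η (1 / 2)
      linarith [hlam.1]
    exact absolutelyContinuous_of_notMem_singSet ⟨h2, hlam.2⟩ (h lam ⟨h1, hlam.2⟩)

end Vale.Agent.H28
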