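import Vale.Agent.H28.BC.Closure

/-!
# Bernoulli convolutions: upper semicontinuity of `λ ↦ ν_λ(F)` for closed `F`
-/

namespace Vale.Agent.H28

open MeasureTheory ProbabilityTheory Filter Topology Set

lemma summable_abs_pow_sub {lam lam0 : ℝ} (h : |lam| < 1) (h0 : |lam0| < 1) :
    Summable (fun n : ℕ => |lam ^ n - lam0 ^ n|) := by
  have hs := (summable_geometric_of_lt_one (abs_nonneg lam) h).add
    (summable_geometric_of_lt_one (abs_nonneg lam0) h0)
  refine Summable.of_nonneg_of_le (fun n => abs_nonneg _) (fun n => ?_) hs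
  calc |lam ^ n - lam0 ^ n| ≤ |lam ^ n| + |lam0 ^ n| := abs_sub _ _
    _ = |lam| ^ n + |lam0| ^ n := by rw [abs_pow, abs_pow]

lemma abs_signSeries_sub_le {lam lam0 : ℝ} (h : |lam| < 1) (h0 : |lam0| < 1) (ω : ℕ → Bool) :
    |signSeries lam ω - signSeries lam0 ω| ≤ ∑' n : ℕ, |lam ^ n - lam0 ^ n| := by
  have hs := summable_signTerm h ω
  have hs0 := summable_signTerm h0 ω
  unfold signSeries
  rw [← hs.tsum_sub hs0]
  have hterm : ∀ n : ℕ, ‖coinSign (ω n) * lam ^ n - coinSign (ω n) * lam0 ^ n‖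
      = |lam ^ n - lam0 ^ n| := by
    intro n
    rw [← mul_sub, norm_mul, Real.norm_eq_abs, abs_coinSign, one_mul, Real.norm_eq_abs]
  have hsn : Summable (fun n : ℕ => ‖coinSign (ω n) * lam ^ n - coinSign (ω n) * lam0 ^ n‖) := by
    simp_rw [hterm]
    exact summable_abs_pow_sub h h0
  calc |∑' n : ℕ, (coinSign (ω n) * lam ^ n - coinSign (ω n) * lam0 ^ n)|
      = ‖∑' n : ℕ, (coinSign (ω n) * lam ^ n - coinSign (ω n) * lam0 ^ n)‖ :=
        (Real.norm_eq_abs _).symm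
    _ ≤ ∑' n : ℕ, ‖coinSign (ω n) * lam ^ n - coinSign (ω n) * lam0 ^ n‖ :=
        norm_tsum_le_tsum_norm hsn
    _ = ∑' n : ℕ, |lam ^ n - lam0 ^ n| := tsum_congr hterm

lemma tendsto_gapSum {lam0 : ℝ} (h0 : |lam0| < 1) :
    Tendsto (fun lam : ℝ => ∑' n : ℕ, |lam ^ n - lam0 ^ n|) (𝓝 lam0) (𝓝 0) := by
  obtain ⟨r, hr0, hr1⟩ := exists_between h0
  have hrpos : 0 ≤ r := (abs_nonneg _).trans hr0.le
  have hu : Summable (fun n : ℕ => 2 * r ^ n) :=
    (summable_geometric_of_lt_one hrpos hr1).mul_left 2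
  have hcont : ContinuousOn (fun lam : ℝ => ∑' n : ℕ, |lam ^ n - lam0 ^ n|) (Icc (-r) r) := by
    refine continuousOn_tsum (fun n => ?_) hu (fun n x hx => ?_)
    · exact (Continuous.abs ((continuous_pow n).sub continuous_const)).continuousOn
    · have hx' : |x| ≤ r := abs_le.2 hx
      rw [Real.norm_eq_abs, abs_abs]
      calc |x ^ n - lam0 ^ n| ≤ |x ^ n| + |lam0 ^ n| := abs_sub _ _
        _ = |x| ^ n + |lam0| ^ n := by rw [abs_pow, abs_pow]
        _ ≤ r ^ n + r ^ n := by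
            gcongr
        _ = 2 * r ^ n := by ring
  have hmem : Icc (-r) r ∈ 𝓝 lam0 := by
    have := abs_lt.1 hr0
    exact Icc_mem_nhds this.1 this.2
  have hat := hcont.continuousAt hmem
  have hz : (∑' n : ℕ, |lam0 ^ n - lam0 ^ n|) = 0 := by simp
  have := hat.tendsto
  rwa [hz] at this

/-- Upper semicontinuity of `λ ↦ ν_λ(F)` for closed `F`: the set where `ν_λ(F) < c` is open
within `|λ| < 1`. -/
theorem isOpen_setOf_bernoulliConv_lt {F : Set ℝ} (hF : IsClosed F) (c : ENNReal) :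
    IsOpen {lam : ℝ | |lam| < 1 ∧ bernoulliConv lam F < c} := by
  rw [isOpen_iff_eventually]
  rintro lam0 ⟨h0, hc⟩
  have := isProbabilityMeasure_bernoulliConv' h0
  have ht : Tendsto (fun δ : ℝ => bernoulliConv lam0 (Metric.cthickening δ F)) (𝓝 0)
      (𝓝 (bernoulliConv lam0 F)) :=
    tendsto_measure_cthickening_of_isClosed ⟨1, one_pos, measure_ne_top _ _⟩ hF
  have hev : ∀ᶠ δ : ℝ in 𝓝[>] 0, bernoulliConv lam0 (Metric.cthickening δ F) < c :=
    (ht.eventually_lt_const hc).filter_mono nhdsWithin_le_nhds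
  obtain ⟨δ, hδc, hδ⟩ := (hev.and self_mem_nhdsWithin).exists
  have hδ0 : (0 : ℝ) < δ := hδ
  have h1 : ∀ᶠ lam : ℝ in 𝓝 lam0, (∑' n : ℕ, |lam ^ n - lam0 ^ n|) < δ :=
    (tendsto_gapSum h0).eventually_lt_const hδ0
  have h2 : ∀ᶠ lam : ℝ in 𝓝 lam0, |lam| < 1 :=
    (continuous_abs.tendsto lam0).eventually_lt_const h0
  filter_upwards [h1, h2] with lam hg hlam
  refine ⟨hlam, lt_of_le_of_lt ?_ hδc⟩
  rw [bernoulliConv_eq, bernoulliConv_eq,
    Measure.map_apply (measurable_signSeries hlam) hF.measurableSet,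
    Measure.map_apply (measurable_signSeries h0) Metric.isClosed_cthickening.measurableSet]
  refine measure_mono (fun ω hω => ?_)
  refine Metric.mem_cthickening_of_dist_le _ (signSeries lam ω) δ F hω ?_
  rw [Real.dist_eq, abs_sub_comm]
  exact (abs_signSeries_sub_le hlam h0 ω).trans hg.le

end Vale.Agent.H28
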